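import Vale.Agent.P034.Main
import Vale.Agent.P034.Greatest

/-!
P034: the fractional and the integral expectation thresholds of an increasing family agree up to
a universal constant factor.
-/

namespace Vale.Agent.Results.P034.FractionalEqualsIntegral

open Finset

/-- `F` is `p`-small: some finite family `G` of sets, such that every member of `F` contains a
member of `G`, has cost `∑ S ∈ G, p ^ |S|` at most `1 / 2`. -/
def PSmall {X : Type} (p : ℝ) (F : Set (Finset X)) : Prop :=
  ∃ G : Finset (Finset X), (∀ H ∈ F, ∃ S ∈ G, S ⊆ H) ∧ ∑ S ∈ G, p ^ S.card ≤ 1 / 2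

/-- `g` is a fractional cover of `F`: it takes values in `[0, 1]`, and for each member `H` of `F`
the total weight of the subsets of `H` is at least `1`. -/
def FractionalCover {X : Type} (g : Finset X → ℝ) (F : Set (Finset X)) : Prop :=
  (∀ S, 0 ≤ g S ∧ g S ≤ 1) ∧ ∀ H ∈ F, 1 ≤ ∑ S ∈ H.powerset, g S

/-- The parameters `p ∈ [0, 1]` at which `F` is `p`-small. -/
def integralSet {X : Type} (F : Set (Finset X)) : Set ℝ :=
  {p | 0 ≤ p ∧ p ≤ 1 ∧ PSmall p F}

/-- The parameters `p ∈ [0, 1]` at which some fractional cover of `F` has cost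
`∑ S, g S * p ^ |S|` at most `1 / 2`. -/
def fractionalSet {X : Type} [Fintype X] (F : Set (Finset X)) : Set ℝ :=
  {p | 0 ≤ p ∧ p ≤ 1 ∧ ∃ g : Finset X → ℝ, FractionalCover g F ∧ ∑ S, g S * p ^ S.card ≤ 1 / 2}

/-- The integral expectation threshold. -/
noncomputable def q {X : Type} (F : Set (Finset X)) : ℝ := sSup (integralSet F)

/-- The fractional expectation threshold. -/
noncomputable def qf {X : Type} [Fintype X] (F : Set (Finset X)) : ℝ := sSup (fractionalSet F)

/-- For every finite nonempty `X` and every nonempty proper increasing family `F` of subsets of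
`X`: both thresholds are attained maxima, and the fractional one is at most `2 ^ 19` times the
integral one. -/
theorem result : ∀ (X : Type) [Fintype X] [DecidableEq X] [Nonempty X] (F : Set (Finset X)),
    F.Nonempty → ∅ ∉ F → (∀ A ∈ F, ∀ B, A ⊆ B → B ∈ F) →
      IsGreatest (integralSet F) (q F) ∧ IsGreatest (fractionalSet F) (qf F) ∧
        qf F ≤ 2 ^ 19 * q F := by
  intro X _ _ _ F _ hF _
  have h1 : IsGreatest (integralSet F) (q F) := by
    obtain ⟨a, ha⟩ := P034.exists_greatest_small F hF
    have h : IsGreatest (integralSet F) a := ha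
    rw [q, h.csSup_eq]
    exact h
  have h2 : IsGreatest (fractionalSet F) (qf F) := by
    obtain ⟨a, ha⟩ := P034.exists_greatest_frac F hF
    have h : IsGreatest (fractionalSet F) a := by
      refine ⟨?_, ?_⟩
      · obtain ⟨h0, h1, g, hg1, hg2, hg3⟩ := ha.1
        exact ⟨h0, h1, g, ⟨hg1, hg2⟩, hg3⟩
      · rintro x ⟨h0, h1, g, hg, hg3⟩
        exact ha.2 ⟨h0, h1, g, hg.1, hg.2, hg3⟩
    rw [qf, h.csSup_eq]
    exact h
  refine ⟨h1, h2, ?_⟩
  obtain ⟨⟨hf0, hf1, g, hg, hgp⟩, _⟩ := h2
  have hq0 : 0 ≤ q F := h1.1.1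
  rcases hf0.eq_or_lt with hf | hf
  · rw [← hf]
    positivity
  · have hs := P034.frac_to_int F g (fun S => (hg.1 S).1) hg.2 (qf F) hf hf1 hgp
    have hmem : qf F / 2 ^ 19 ∈ integralSet F := by
      refine ⟨by positivity, ?_, hs⟩
      rw [div_le_one (by positivity)]
      have : (1 : ℝ) ≤ 2 ^ 19 := by norm_num
      linarith
    have hle := h1.2 hmem
    rw [div_le_iff₀ (by positivity)] at hle
    linarith

end Vale.Agent.Results.P034.FractionalEqualsIntegral
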